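import Vale.Agent.P258.R2.H550D9.Sound

set_option linter.all false

namespace Vale.Agent.P258.H550D9

open Vale.Agent.P258.H550P9 (F9 fmN faN ng en force force_eq mem look)

theorem conj_same (D : Diagram) (ρ : Fin D.n → G) (h : D.IsCol ρ) {a b : Fin D.n}
    (hab : D.SameComponent a b) : ∃ k : G, ρ b = k⁻¹ * ρ a * k := by
  obtain ⟨i, rfl⟩ := hab
  induction i with
  | zero => exact ⟨1, by simp⟩
  | succ i ih =>
    obtain ⟨k, hk⟩ := ih
    refine ⟨k * ρ (D.above (D.next^[i] a)) ^ (D.sgn (D.next^[i] a) : ℤ), ?_⟩
    rw [Function.iterate_succ_apply', h, hk, zpow_neg]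
    group

theorem blt_of_even {A : G} (h : A.e = false) : Nat.blt (code A) 65536 = true := by
  have h3 : code A / 65536 = bN A.e := (dig A).2.2.2.2
  rw [h] at h3
  have h4 : bN false = 0 := rfl
  apply Nat.ble_eq_true_of_le
  omega

theorem keyR (ρ : Fin 21 → G) (h : pattern.IsCol ρ) (hs : (ρ 0).e = true)
    (hs19 : (ρ 19).e = false)
    (hE : pattern.lonVal ρ patternE = 1 → ρ 19 = 1)
    (hl : ρ 0 * ρ 0 = pattern.lonVal ρ patternK) : ρ 0 * ρ 0 * (ρ 0 * ρ 0) = 1 := by
  by_contra hne
  obtain ⟨t, ht, hcl⟩ := exists_class hs hne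
  obtain ⟨R, hR⟩ := exists_rep ht
  obtain ⟨W, _, eW⟩ := exists_w ht hR hcl
  have eW' : W * ρ 0 * W⁻¹ = R := by rw [eW]; group
  obtain ⟨k12, hk12⟩ := conj_same pattern ρ h ((comp_K 12).2 (by decide))
  have hk12' : ρ 12 = k12⁻¹ * ρ 0 * k12 := hk12
  have hcl12 : code (W * ρ 12 * W⁻¹) ∈ cl t := by
    refine mem_cl ht hR (k := W * k12 * W⁻¹) ?_
    rw [← eW', hk12']
    group
  obtain ⟨C, hC, horb⟩ := exists_orb ht hR hcl12
  let φ : G →* G := (MulAut.conj (C * W)).toMonoidHom
  have hφ : ∀ g, φ g = C * W * g * (C * W)⁻¹ := fun g => rfl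
  have hφinj : Function.Injective φ := (MulAut.conj (C * W)).injective
  let v : Fin 21 → G := fun a => φ (ρ a)
  have hv : pattern.IsCol v := Diagram.IsCol.map pattern h φ
  have hP : PatRel v := patRel_of_isCol v hv
  have hEv : (v 6)⁻¹ * v 10 = 1 → v 19 = 1 := by
    intro h1
    have h2 : pattern.lonVal v patternE = 1 := by rw [lonVal_E]; exact h1
    have h3 : pattern.lonVal v patternE = φ (pattern.lonVal ρ patternE) :=
      Diagram.lonVal_map pattern ρ φ patternE
    rw [h3] at h2
    have h4 : pattern.lonVal ρ patternE = 1 := hφinj (by rw [h2, map_one])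
    change φ (ρ 19) = 1
    rw [hE h4, map_one]
  have hlv : v 0 * v 0 = lamK v := by
    rw [← lonVal_K]
    have h3 : pattern.lonVal v patternK = φ (pattern.lonVal ρ patternK) :=
      Diagram.lonVal_map pattern ρ φ patternK
    rw [h3, ← hl, map_mul]
  have hv0 : v 0 = R := by
    change φ (ρ 0) = _
    rw [hφ]
    have : C * W * ρ 0 * (C * W)⁻¹ = C * (W * ρ 0 * W⁻¹) * C⁻¹ := by group
    rw [this, eW', hC]
    group
  have hv12 : code (v 12) ∈ orb t := by
    change code (φ (ρ 12)) ∈ orb t
    rw [hφ]
    have : C * W * ρ 12 * (C * W)⁻¹ = C * (W * ρ 12 * W⁻¹) * C⁻¹ := by group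
    rw [this]
    exact horb
  have hmem : ∀ b : Fin 21, b.val < 19 → code (v b) ∈ cl t := by
    intro b hb
    obtain ⟨k2, hk2⟩ := conj_same pattern v hv ((comp_K b).2 hb)
    have hk2' : v b = k2⁻¹ * v 0 * k2 := hk2
    refine mem_cl ht hR (k := k2) ?_
    rw [← hv0, hk2']
  have h8c := transporter_rep ht hR (hmem 1 (by decide)) (y := v 8) (by rw [← hv0]; exact hP.f0)
  have h19c := transporter ht hR (hmem 10 (by decide)) (hmem 11 (by decide)) hP.f10
  have hev : Nat.blt (code (v 19)) 65536 = true := by
    apply blt_of_even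
    change (φ (ρ 19)).e = false
    rw [hφ, G.mul_e', G.mul_e', hs19, G.inv_e', Bool.xor_false, Bool.xor_self]
  exact sound v hP hEv hev t (by rw [hv0, hR]) hv12 (hmem 3 (by decide))
    (tr_of_mem ht (hmem 8 (by decide))) h8c h19c (all_range' check ht) hlv

/-- The element with a given code. -/
noncomputable def toG (x : ℕ) : G := if h : valid x = true then (exists_code h).choose else 1

theorem code_toG {x : ℕ} (h : valid x = true) : code (toG x) = x := by
  unfold toG
  rw [dif_pos h]
  exact (exists_code h).choose_spec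

/-- The codes of a colouring of the first pattern with `μ ^ 2 * λ = 1`. -/
def bcA (i : ℕ) : ℕ :=
  ([71696, 75906, 95747, 77911, 74530, 94979, 99205, 66593, 70688, 94307, 79367, 87624, 65921, 83078, 70480, 99621, 92020, 66593, 82534, 8242, 34933] : List ℕ).getD i 0

theorem chk_bcA : ((List.range 21).all fun i => valid (bcA i)) = true := by
  decide +kernel

/-- A colouring of the first pattern with `μ ^ 2 * λ = 1`. -/
noncomputable def baseA (i : Fin 21) : G := toG (bcA i.val)

theorem code_baseA (i : Fin 21) : code (baseA i) = bcA i.val :=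
  code_toG (all_range' chk_bcA i.isLt)

theorem baseA_rel : PatRel baseA where
  f0 := code_inj (by simp only [code_cj, code_baseA]; decide +kernel)
  f1 := code_inj (by simp only [code_cj, code_baseA]; decide +kernel)
  f2 := code_inj (by simp only [code_cj, code_baseA]; decide +kernel)
  f3 := code_inj (by simp only [code_cj, code_baseA]; decide +kernel)
  f4 := code_inj (by simp only [code_cj, code_baseA]; decide +kernel)
  f5 := code_inj (by simp only [code_cj, code_baseA]; decide +kernel)
  f6 := code_inj (by simp only [code_cj, code_baseA]; decide +kernel)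
  f7 := code_inj (by simp only [code_cj, code_baseA]; decide +kernel)
  f8 := code_inj (by simp only [code_cj, code_baseA]; decide +kernel)
  f9 := code_inj (by simp only [code_cj, code_baseA]; decide +kernel)
  f10 := code_inj (by simp only [code_cj, code_baseA]; decide +kernel)
  f11 := code_inj (by simp only [code_cj, code_baseA]; decide +kernel)
  f12 := code_inj (by simp only [code_cj, code_baseA]; decide +kernel)
  f13 := code_inj (by simp only [code_cj, code_baseA]; decide +kernel)
  f14 := code_inj (by simp only [code_cj, code_baseA]; decide +kernel)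
  f15 := code_inj (by simp only [code_cj, code_baseA]; decide +kernel)
  f16 := code_inj (by simp only [code_cj, code_baseA]; decide +kernel)
  f17 := code_inj (by simp only [code_cj, code_baseA]; decide +kernel)
  f18 := code_inj (by simp only [code_cj, code_baseA]; decide +kernel)
  f19 := code_inj (by simp only [code_cj, code_baseA]; decide +kernel)
  f20 := code_inj (by simp only [code_cj, code_baseA]; decide +kernel)

theorem baseA_K : baseA 0 * baseA 0 * lamK baseA = 1 := by
  apply code_inj
  unfold lamK
  simp only [code_mul, code_inv, code_one, code_baseA]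
  decide +kernel

theorem baseA_four : baseA 0 * baseA 0 * (baseA 0 * baseA 0) ≠ 1 := by
  intro h
  have := congrArg code h
  rw [code_mul, code_mul, code_one, code_baseA] at this
  revert this
  decide +kernel

theorem baseA_E : ((baseA 6)⁻¹ * baseA 10) ^ (6 : ℕ) = 1 := by
  apply code_inj
  simp only [pow_succ, pow_zero, one_mul, code_mul, code_inv, code_one, code_baseA]
  decide +kernel

theorem baseA_19 : baseA 19 = ((baseA 6)⁻¹ * baseA 10) ^ (1 : ℕ) := by
  apply code_inj
  simp only [pow_succ, pow_zero, one_mul, code_mul, code_inv, code_one, code_baseA]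
  decide +kernel

theorem baseA_odd : (baseA 0).e = true := by
  rcases h : (baseA 0).e with _ | _
  · have h1 := blt_of_even h
    rw [code_baseA] at h1
    revert h1
    decide +kernel
  · rfl

/-- The codes of a colouring of the first pattern with `μ ^ 2 * λ = 1`. -/
def bcB (i : ℕ) : ℕ :=
  ([71696, 75906, 95747, 77911, 74530, 94979, 99205, 66593, 70688, 94307, 79367, 87624, 65921, 83078, 70480, 99621, 92020, 66593, 82534, 4193, 17495] : List ℕ).getD i 0

theorem chk_bcB : ((List.range 21).all fun i => valid (bcB i)) = true := by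
  decide +kernel

/-- A colouring of the first pattern with `μ ^ 2 * λ = 1`. -/
noncomputable def baseB (i : Fin 21) : G := toG (bcB i.val)

theorem code_baseB (i : Fin 21) : code (baseB i) = bcB i.val :=
  code_toG (all_range' chk_bcB i.isLt)

theorem baseB_rel : PatRel baseB where
  f0 := code_inj (by simp only [code_cj, code_baseB]; decide +kernel)
  f1 := code_inj (by simp only [code_cj, code_baseB]; decide +kernel)
  f2 := code_inj (by simp only [code_cj, code_baseB]; decide +kernel)
  f3 := code_inj (by simp only [code_cj, code_baseB]; decide +kernel)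
  f4 := code_inj (by simp only [code_cj, code_baseB]; decide +kernel)
  f5 := code_inj (by simp only [code_cj, code_baseB]; decide +kernel)
  f6 := code_inj (by simp only [code_cj, code_baseB]; decide +kernel)
  f7 := code_inj (by simp only [code_cj, code_baseB]; decide +kernel)
  f8 := code_inj (by simp only [code_cj, code_baseB]; decide +kernel)
  f9 := code_inj (by simp only [code_cj, code_baseB]; decide +kernel)
  f10 := code_inj (by simp only [code_cj, code_baseB]; decide +kernel)
  f11 := code_inj (by simp only [code_cj, code_baseB]; decide +kernel)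
  f12 := code_inj (by simp only [code_cj, code_baseB]; decide +kernel)
  f13 := code_inj (by simp only [code_cj, code_baseB]; decide +kernel)
  f14 := code_inj (by simp only [code_cj, code_baseB]; decide +kernel)
  f15 := code_inj (by simp only [code_cj, code_baseB]; decide +kernel)
  f16 := code_inj (by simp only [code_cj, code_baseB]; decide +kernel)
  f17 := code_inj (by simp only [code_cj, code_baseB]; decide +kernel)
  f18 := code_inj (by simp only [code_cj, code_baseB]; decide +kernel)
  f19 := code_inj (by simp only [code_cj, code_baseB]; decide +kernel)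
  f20 := code_inj (by simp only [code_cj, code_baseB]; decide +kernel)

theorem baseB_K : baseB 0 * baseB 0 * lamK baseB = 1 := by
  apply code_inj
  unfold lamK
  simp only [code_mul, code_inv, code_one, code_baseB]
  decide +kernel

theorem baseB_four : baseB 0 * baseB 0 * (baseB 0 * baseB 0) ≠ 1 := by
  intro h
  have := congrArg code h
  rw [code_mul, code_mul, code_one, code_baseB] at this
  revert this
  decide +kernel

theorem baseB_E : ((baseB 6)⁻¹ * baseB 10) ^ (6 : ℕ) = 1 := by
  apply code_inj
  simp only [pow_succ, pow_zero, one_mul, code_mul, code_inv, code_one, code_baseB]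
  decide +kernel

theorem baseB_19 : baseB 19 = ((baseB 6)⁻¹ * baseB 10) ^ (4 : ℕ) := by
  apply code_inj
  simp only [pow_succ, pow_zero, one_mul, code_mul, code_inv, code_one, code_baseB]
  decide +kernel

theorem baseB_odd : (baseB 0).e = true := by
  rcases h : (baseB 0).e with _ | _
  · have h1 := blt_of_even h
    rw [code_baseB] at h1
    revert h1
    decide +kernel
  · rfl

theorem zpow_mod_n {H : Type*} [Group H] (x : H) (n : ℕ) (hx : x ^ n = 1) (f : ℤ) (r : ℕ)
    (hf : f % (n : ℤ) = r) : x ^ f = x ^ r := by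
  have h1 : f = (n : ℤ) * (f / n) + r := by rw [← hf]; exact (Int.mul_ediv_add_emod f n).symm
  rw [h1, zpow_add, zpow_mul, zpow_natCast, hx, one_zpow, one_mul, zpow_natCast]

theorem four_eq {H : Type*} [Group H] (x : H) : x ^ (4 : ℤ) = x * x * (x * x) := by
  have h2 : x ^ (4 : ℤ) = x ^ (4 : ℕ) := by exact_mod_cast zpow_natCast x 4
  rw [h2]
  simp only [pow_succ, pow_zero, one_mul, mul_assoc]

/-- No odd homomorphism kills the curve of slope `-2`, unless the fourth power of the meridian of
`K` is `1`. -/
theorem rowA (ρ : Fin pattern.n → G) (h1 : IsHom pattern ρ) (hs : (ρ patternK).e = true)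
    (hs' : (ρ patternE).e = false) (hE : lon pattern ρ patternE = 1 → ρ patternE = 1)
    (hl : ρ patternK ^ (-2 : ℤ) * lon pattern ρ patternK = 1) : ρ patternK ^ (4 : ℤ) = 1 := by
  have hcol : pattern.IsCol ρ := fun a => (pattern.lift_wirtinger ρ a).1 (h1 a)
  have e1 : lon pattern ρ patternE = pattern.lonVal ρ patternE :=
    pattern.lift_longitude ρ patternE
  have e2 : lon pattern ρ patternK = pattern.lonVal ρ patternK :=
    pattern.lift_longitude ρ patternK
  rw [e1] at hE
  rw [e2] at hl
  have hl2 : ρ patternK * ρ patternK = pattern.lonVal ρ patternK := by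
    have h3 : ρ patternK * ρ patternK * (ρ patternK ^ (-2 : ℤ) * pattern.lonVal ρ patternK) =
        pattern.lonVal ρ patternK := by group
    rw [← h3, hl, mul_one]
  have h4 : ρ patternK * ρ patternK * (ρ patternK * ρ patternK) = 1 := keyR ρ hcol hs hs' hE hl2
  rw [four_eq, h4]

theorem exists_of_base (b : Fin 21 → G) (hb : PatRel b) (hs : (b 0).e = true)
    (hK : b 0 * b 0 * lamK b = 1)
    (h4 : b 0 * b 0 * (b 0 * b 0) ≠ 1) (n : ℕ) (h8 : ((b 6)⁻¹ * b 10) ^ n = 1) (r : ℕ)
    (hr : b 19 = ((b 6)⁻¹ * b 10) ^ r) (f : ℤ) (hf : f % (n : ℤ) = r) :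
    ∃ ρ : Fin pattern.n → G, IsHom pattern ρ ∧ (ρ patternK).e = true ∧
      ρ patternK ^ (2 : ℤ) * lon pattern ρ patternK = 1 ∧
      ρ patternK ^ (4 : ℤ) ≠ 1 ∧ ρ patternE = lon pattern ρ patternE ^ f := by
  have hl : ∀ a, lon pattern b a = pattern.lonVal b a := fun a => pattern.lift_longitude b a
  refine ⟨b, fun a => (pattern.lift_wirtinger b a).2 (isCol_of_patRel b hb a), hs, ?_, ?_, ?_⟩
  · rw [hl, lonVal_K]
    change b 0 ^ (2 : ℤ) * lamK b = 1
    rw [zpow_two]
    exact hK
  · change b 0 ^ (4 : ℤ) ≠ 1
    rw [four_eq]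
    exact h4
  · rw [hl, lonVal_E, zpow_mod_n _ n h8 f r hf]
    exact hr

theorem rowB (f : ℤ) (hf : f % 3 = 1) :
    ∃ ρ : Fin pattern.n → G, IsHom pattern ρ ∧ (ρ patternK).e = true ∧
      ρ patternK ^ (2 : ℤ) * lon pattern ρ patternK = 1 ∧
      ρ patternK ^ (4 : ℤ) ≠ 1 ∧ ρ patternE = lon pattern ρ patternE ^ f := by
  have h6 : f % 6 = 1 ∨ f % 6 = 4 := by omega
  rcases h6 with h6 | h6
  · exact exists_of_base baseA baseA_rel baseA_odd baseA_K baseA_four 6 baseA_E 1 baseA_19 f
      (by exact_mod_cast h6)
  · exact exists_of_base baseB baseB_rel baseB_odd baseB_K baseB_four 6 baseB_E 4 baseB_19 f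
      (by exact_mod_cast h6)

theorem comm_same {A : Type*} [CommGroup A] (D : Diagram) (χ : Fin D.n → A) (h : D.IsCol χ)
    {a b : Fin D.n} (hab : D.SameComponent a b) : χ b = χ a := by
  obtain ⟨i, rfl⟩ := hab
  induction i with
  | zero => rfl
  | succ i ih =>
    rw [Function.iterate_succ_apply', h, ih, mul_right_comm, ← zpow_add, neg_add_cancel,
      zpow_zero, one_mul]

theorem lonVal_E' {H : Type*} [Group H] (v : Fin 21 → H) :
    pattern.lonVal v patternE = (v 6)⁻¹ * v 10 := by
  have h : (fun b : Fin 21 => v (pattern.above b) ^ ((pattern.sgn b : ℤˣ) : ℤ)) =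
      fun b => v (aboveV b) ^ (sgnV b : ℤ) := funext (fun b => by rw [aboveV_eq, sgnV_eq])
  have h1 : (List.map (fun b : Fin 21 => v (pattern.above b) ^ ((pattern.sgn b : ℤˣ) : ℤ))
      [19, 20]).prod = v 6 ^ (-1 : ℤ) * (v 10 ^ (1 : ℤ) * (1)) := by
    rw [h]
    rfl
  have h3 := lonVal_eq (D := pattern) v patternE _ _ _ walk_E writhe_E h1
  rw [h3]
  simp only [zpow_one, zpow_neg_one, mul_one, neg_zero, zpow_zero]

theorem lon_comm {A : Type} [CommGroup A] (χ : Fin pattern.n → A) (h : pattern.IsCol χ) :
    pattern.lonVal χ patternE = 1 := by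
  have h1 : pattern.lonVal χ patternE = (χ (6 : Fin 21))⁻¹ * χ (10 : Fin 21) := lonVal_E' χ
  have h6 : χ (6 : Fin 21) = χ patternK :=
    comm_same pattern χ h ((comp_K (6 : Fin 21)).2 (by decide))
  have h10 : χ (10 : Fin 21) = χ patternK :=
    comm_same pattern χ h ((comp_K (10 : Fin 21)).2 (by decide))
  rw [h1, h6, h10, inv_mul_cancel]

theorem e_of_eps {x : G} : (G.eps x = 1 ↔ x.e = false) ∧ (G.eps x = -1 ↔ x.e = true) := by
  rw [G.eps_apply]
  cases x.e <;> simp <;> decide

theorem rowD9 (f : ℤ) (hf : f % 3 = 1) :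
    SeparatesGraded G ℤˣ G.eps pattern patternK patternE f 2 (-2) := by
  refine ⟨?_, ?_, ?_⟩
  · intro χ h1 h2 a
    have hcol : pattern.IsCol χ := fun a => (pattern.lift_wirtinger χ a).1 (h1 a)
    have hE : lon pattern χ patternE = 1 :=
      (pattern.lift_longitude χ patternE).trans (lon_comm χ hcol)
    rw [hE, one_zpow] at h2
    by_cases ha : a.val < 19
    · rw [comm_same pattern χ hcol ((comp_K a).2 ha)]
      exact Subgroup.mem_zpowers _
    · rw [comm_same pattern χ hcol ((comp_E a).2 (not_lt.1 ha)), h2]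
      exact one_mem _
  · intro ρ h1 h2 h3 h4 h5
    have hcol : pattern.IsCol ρ := fun a => (pattern.lift_wirtinger ρ a).1 (h1 a)
    have hs : (ρ patternK).e = true := by
      rcases Int.units_eq_one_or (G.eps (ρ patternK)) with h | h
      · exfalso
        rw [h, Subgroup.zpowers_one_eq_bot] at h2
        have h6 : (-1 : ℤˣ) ∈ (⊥ : Subgroup ℤˣ) := by rw [h2]; trivial
        rw [Subgroup.mem_bot] at h6
        exact absurd h6 (by decide)
      · exact e_of_eps.2.1 h
    have hlon : G.eps (lon pattern ρ patternE) = 1 := by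
      have e1 : lon pattern ρ patternE = pattern.lonVal ρ patternE :=
        pattern.lift_longitude ρ patternE
      rw [e1, map_lonVal]
      exact lon_comm _ (isCol_map G.eps pattern ρ hcol)
    have hs' : (ρ patternE).e = false := e_of_eps.1.1 (by rw [h3, hlon, one_zpow])
    have h6 := rowA ρ h1 hs hs' (fun h => by
      have := h4 (by rw [h]; exact one_mem _)
      rwa [h, one_zpow] at this) h5
    have e : ((2 : ℤ) - (-2)) = 4 := by norm_num
    rw [e]
    exact h6
  · obtain ⟨ρ, a1, a2, a3, a4, a5⟩ := rowB f hf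
    refine ⟨ρ, a1, ?_, a3, ?_, a5⟩
    · rw [e_of_eps.2.2 a2]
      refine (Subgroup.eq_top_iff' _).2 fun x => ?_
      rcases Int.units_eq_one_or x with rfl | rfl
      · exact one_mem _
      · exact Subgroup.mem_zpowers _
    · have e : ((2 : ℤ) - (-2)) = 4 := by norm_num
      rw [e]
      exact a4

/-- The class form: all companions, all patterns congruent modulo `240`. -/
theorem class_D9 (f : ℤ) (hf : f % 3 = 1) :
    SeparatesClassSlopes 240 pattern patternK patternE f 2 (-2) :=
  separatesClassSlopes_of_graded G.eps (N := 240) G_pow pattern patternK patternE f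
    2 (-2) (rowD9 f hf)

end Vale.Agent.P258.H550D9
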