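import Vale.Agent.P258.R2.H550D9.Code

set_option linter.all false

namespace Vale.Agent.P258.H550D9

open Matrix
open Vale.Agent.P258.H550P9 (F9 fmN faN ng en force force_eq mem look)

def bN (e : Bool) : ℕ := cond e 1 0

theorem bN_lt (e : Bool) : bN e < 2 := by cases e <;> decide

theorem bN_inj : ∀ {e e' : Bool}, bN e = bN e' → e = e' := by decide

theorem cd_digits {a b c d e : ℕ} (ha : a < 9) (hb : b < 9) (hc : c < 9) (hd : d < 9)
    (he : e < 2) :
    Nat.mod (cd a b c d e) 16 = a ∧ Nat.mod (Nat.div (cd a b c d e) 16) 16 = b ∧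
    Nat.mod (Nat.div (cd a b c d e) 256) 16 = c ∧
    Nat.mod (Nat.div (cd a b c d e) 4096) 16 = d ∧ Nat.div (cd a b c d e) 65536 = e := by
  have h : cd a b c d e = ((a + 16 * b) + (256 * c + 4096 * d)) + 65536 * e := rfl
  rw [h]
  change (((a + 16 * b) + (256 * c + 4096 * d)) + 65536 * e) % 16 = a ∧
    ((((a + 16 * b) + (256 * c + 4096 * d)) + 65536 * e) / 16) % 16 = b ∧
    ((((a + 16 * b) + (256 * c + 4096 * d)) + 65536 * e) / 256) % 16 = c ∧
    ((((a + 16 * b) + (256 * c + 4096 * d)) + 65536 * e) / 4096) % 16 = d ∧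
    (((a + 16 * b) + (256 * c + 4096 * d)) + 65536 * e) / 65536 = e
  omega

theorem en_val (a b c d : F9) : en a.val b.val c.val d.val = (a * b + c * d).val := rfl

theorem ng_val (a : F9) : ng a.val = (-a).val := rfl

/-- The code of an element. -/
def code (A : G) : ℕ := cd (A.m 0 0).val (A.m 0 1).val (A.m 1 0).val (A.m 1 1).val (bN A.e)

theorem dig (A : G) :
    Nat.mod (code A) 16 = (A.m 0 0).val ∧ Nat.mod (Nat.div (code A) 16) 16 = (A.m 0 1).val ∧
    Nat.mod (Nat.div (code A) 256) 16 = (A.m 1 0).val ∧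
    Nat.mod (Nat.div (code A) 4096) 16 = (A.m 1 1).val ∧ Nat.div (code A) 65536 = bN A.e :=
  cd_digits (A.m 0 0).lt (A.m 0 1).lt (A.m 1 0).lt (A.m 1 1).lt (bN_lt _)

theorem cc_val (x : F9) : fmN 5 x.val = (ccF * x).val := rfl

theorem mulA_0 (a b c d e f g h : ℕ) : mulA a b c d e f g h 0 =
    cd (en a e b g) (en a f b h) (en c e d g) (en c f d h) 0 := by
  unfold mulA
  have h' : Nat.beq 0 2 = false := rfl
  rw [h', cond_false]

theorem mulA_1 (a b c d e f g h : ℕ) : mulA a b c d e f g h 1 =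
    cd (en a e b g) (en a f b h) (en c e d g) (en c f d h) 1 := by
  unfold mulA
  have h' : Nat.beq 1 2 = false := rfl
  rw [h', cond_false]

theorem mulA_2 (a b c d e f g h : ℕ) : mulA a b c d e f g h 2 =
    cd (fmN 5 (en a e b g)) (fmN 5 (en a f b h)) (fmN 5 (en c e d g))
      (fmN 5 (en c f d h)) 0 := by
  unfold mulA
  have h' : Nat.beq 2 2 = true := rfl
  rw [h', cond_true]

theorem code_mul (A B : G) : code (A * B) = mulN (code A) (code B) := by
  obtain ⟨h1, h2, h3, h4, h5⟩ := dig A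
  obtain ⟨k1, k2, k3, k4, k5⟩ := dig B
  unfold mulN
  rw [h1, h2, h3, h4, h5, k1, k2, k3, k4, k5]
  unfold code
  rw [G.mul_m', G.mul_e']
  simp only [Matrix.smul_apply, Matrix.mul_apply, Fin.sum_univ_two, smul_eq_mul]
  rcases hA : A.e with _ | _ <;> rcases hB : B.e with _ | _
  · have e1 : sF false false = 1 := rfl
    have e2 : Nat.add (bN false) (bN false) = 0 := rfl
    have e3 : bN (xor false false) = 0 := rfl
    rw [e2, e3, mulA_0]
    simp only [e1, one_mul, en_val]
  · have e1 : sF false true = 1 := rfl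
    have e2 : Nat.add (bN false) (bN true) = 1 := rfl
    have e3 : bN (xor false true) = 1 := rfl
    rw [e2, e3, mulA_1]
    simp only [e1, one_mul, en_val]
  · have e1 : sF true false = 1 := rfl
    have e2 : Nat.add (bN true) (bN false) = 1 := rfl
    have e3 : bN (xor true false) = 1 := rfl
    rw [e2, e3, mulA_1]
    simp only [e1, one_mul, en_val]
  · have e1 : sF true true = ccF := rfl
    have e2 : Nat.add (bN true) (bN true) = 2 := rfl
    have e3 : bN (xor true true) = 0 := rfl
    rw [e2, e3, mulA_2]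
    simp only [e1, en_val, cc_val]

theorem code_inv (A : G) : code A⁻¹ = invN (code A) := by
  obtain ⟨h1, h2, h3, h4, h5⟩ := dig A
  unfold invN
  rw [h1, h2, h3, h4, h5, ng_val, ng_val]
  unfold code
  rw [G.inv_m', G.inv_e', Matrix.adjugate_fin_two]
  rfl

theorem code_one : code 1 = 4097 := by decide +kernel

theorem code_inj {A B : G} (h : code A = code B) : A = B := by
  obtain ⟨h1, h2, h3, h4, h5⟩ := dig A
  obtain ⟨k1, k2, k3, k4, k5⟩ := dig B
  rw [h] at h1 h2 h3 h4 h5
  apply G.ext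
  · ext i j
    fin_cases i <;> fin_cases j
    · exact h1.symm.trans k1
    · exact h2.symm.trans k2
    · exact h3.symm.trans k3
    · exact h4.symm.trans k4
  · exact bN_inj (h5.symm.trans k5)

theorem code_cj (x k : G) : code (k⁻¹ * x * k) = cjN (code x) (code k) := by
  rw [code_mul, code_mul, code_inv]; rfl

theorem code_ci (x k : G) : code (k * x * k⁻¹) = ciN (code x) (code k) := by
  rw [code_mul, code_mul, code_inv]; rfl

theorem nu_val (e : Bool) : (dF e).val = cond (Nat.beq (bN e) 0) 1 4 := by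
  cases e <;> rfl

theorem det_eq (A : G) :
    det1 (A.m 0 0).val (A.m 0 1).val (A.m 1 0).val (A.m 1 1).val (bN A.e) = true := by
  have h := A.h
  rw [Matrix.det_fin_two] at h
  unfold det1
  rw [ng_val, en_val, ← nu_val]
  have h2 : A.m 0 0 * A.m 1 1 + -A.m 0 1 * A.m 1 0 = dF A.e := by linear_combination h
  rw [h2]
  exact Nat.beq_refl _

theorem exists_code {x : ℕ} (h : valid x = true) : ∃ W : G, code W = x := by
  unfold valid at h
  rw [Bool.and_eq_true, Bool.and_eq_true, Bool.and_eq_true, Bool.and_eq_true,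
    Bool.and_eq_true] at h
  obtain ⟨h1, h2, h3, h4, h5, hd⟩ := h
  have l1 : Nat.mod x 16 < 9 := Nat.lt_of_succ_le (Nat.le_of_ble_eq_true h1)
  have l2 : Nat.mod (Nat.div x 16) 16 < 9 := Nat.lt_of_succ_le (Nat.le_of_ble_eq_true h2)
  have l3 : Nat.mod (Nat.div x 256) 16 < 9 := Nat.lt_of_succ_le (Nat.le_of_ble_eq_true h3)
  have l4 : Nat.mod (Nat.div x 4096) 16 < 9 := Nat.lt_of_succ_le (Nat.le_of_ble_eq_true h4)
  have l5 : Nat.div x 65536 < 2 := Nat.lt_of_succ_le (Nat.le_of_ble_eq_true h5)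
  obtain ⟨e, he⟩ : ∃ e : Bool, bN e = Nat.div x 65536 := by
    generalize Nat.div x 65536 = n at l5
    interval_cases n
    · exact ⟨false, rfl⟩
    · exact ⟨true, rfl⟩
  unfold det1 at hd
  replace hd := Nat.eq_of_beq_eq_true hd
  rw [← he, ← nu_val] at hd
  refine ⟨⟨!![(⟨_, l1⟩ : F9), ⟨_, l2⟩; ⟨_, l3⟩, ⟨_, l4⟩], e, ?_⟩, ?_⟩
  · rw [Matrix.det_fin_two_of]
    apply F9.ext'
    have e' : ((⟨_, l1⟩ : F9) * ⟨_, l4⟩ - ⟨_, l2⟩ * ⟨_, l3⟩) =
        (⟨_, l1⟩ : F9) * ⟨_, l4⟩ + -⟨_, l2⟩ * ⟨_, l3⟩ := by ring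
    rw [e', ← en_val, ← ng_val]
    exact hd
  · change ((x % 16 + 16 * (x / 16 % 16)) + (256 * (x / 256 % 16) + 4096 * (x / 4096 % 16))) +
      65536 * bN e = x
    have he' : bN e = x / 65536 := he
    rw [he']
    omega

theorem mem_of_mem {x : ℕ} {l : List ℕ} (h : mem x l = true) : x ∈ l := by
  unfold mem at h
  rw [List.any_eq_true] at h
  obtain ⟨y, hy, e⟩ := h
  rw [Nat.eq_of_beq_eq_true e]
  exact hy

theorem all_step {l : List ℕ} {x : ℕ} {p : ℕ → Bool} (h : l.all p = true) (hx : x ∈ l) :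
    p x = true := List.all_eq_true.1 h x hx

theorem all_range' {n : ℕ} {p : ℕ → Bool} (h : (List.range n).all p = true) {a : ℕ}
    (ha : a < n) : p a = true := List.all_eq_true.1 h a (List.mem_range.2 ha)

/-- All elements of the group satisfy `p`. -/
def allEl (p : ℕ → Bool) : Bool :=
  (List.range 9).all fun a => (List.range 9).all fun b => (List.range 9).all fun c =>
    (List.range 9).all fun d => (List.range 2).all fun e =>
      cond (det1 a b c d e) (force (cd a b c d e) p) true

theorem of_allEl {p : ℕ → Bool} (h : allEl p = true) (A : G) : p (code A) = true := by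
  unfold allEl at h
  have h1 := all_range' (all_range' (all_range' (all_range' (all_range' h (A.m 0 0).lt)
    (A.m 0 1).lt) (A.m 1 0).lt) (A.m 1 1).lt) (bN_lt A.e)
  rw [det_eq A, cond_true, force_eq] at h1
  exact h1

theorem of_allEl_odd {p : ℕ → Bool} (h : allEl (fun x => Nat.blt x 65536 || p x) = true) (A : G)
    (hA : A.e = true) : p (code A) = true := by
  have h1 := of_allEl h A
  rw [Bool.or_eq_true] at h1
  rcases h1 with h1 | h1
  · exfalso
    have h2 : code A < 65536 := Nat.lt_of_succ_le (Nat.le_of_ble_eq_true h1)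
    have h3 : code A / 65536 = bN A.e := (dig A).2.2.2.2
    rw [hA] at h3
    have h4 : bN true = 1 := rfl
    omega
  · exact h1

theorem chk_some : allEl (fun x => Nat.blt x 65536 ||
    (force (mulN x x) (fun y => Nat.beq (mulN y y) 4097) ||
    (List.range 8).any fun t => mem x (cl t))) = true := by
  decide +kernel

theorem chk_class : allEl (fun k => (List.range 8).all fun t =>
    force (ciN (rep t) k) fun y => mem y (cl t)) = true := by
  decide +kernel

theorem chk_cen : allEl (fun x => (List.range 8).all fun t =>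
    !(Nat.beq (mulN (rep t) x) (mulN x (rep t))) || mem x (cen t)) = true := by
  decide +kernel

theorem chk_w : ((List.range 8).all fun t => (cl t).all fun x =>
    force (wN t x) fun w => valid w && Nat.beq (mulN w x) (mulN (rep t) w)) = true := by
  decide +kernel

theorem chk_cenval : ((List.range 8).all fun t => (cen t).all fun c =>
    valid c && Nat.beq (mulN c (rep t)) (mulN (rep t) c)) = true := by
  decide +kernel

theorem chk_orb : ((List.range 8).all fun t => (cl t).all fun x =>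
    (cen t).any fun c => force (ciN x c) fun y => mem y (orb t)) = true := by
  decide +kernel

theorem chk_rep : ((List.range 8).all fun t => valid (rep t)) = true := by
  decide +kernel

theorem chk_tr : ((List.range 8).all fun t => (cl t).all fun x => trF t x) = true := by
  decide +kernel

theorem tr_of_mem {t : ℕ} (ht : t < 8) {x : ℕ} (h : x ∈ cl t) : trF t x = true :=
  all_step (all_range' chk_tr ht) h

theorem exists_rep {t : ℕ} (ht : t < 8) : ∃ R : G, code R = rep t :=
  exists_code (all_range' chk_rep ht)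

theorem exists_w {t : ℕ} (ht : t < 8) {R : G} (hR : code R = rep t) {A : G}
    (h : code A ∈ cl t) : ∃ W : G, code W = wN t (code A) ∧ W * A = R * W := by
  have h1 := all_step (all_range' chk_w ht) h
  rw [force_eq, Bool.and_eq_true] at h1
  obtain ⟨W, hW⟩ := exists_code h1.1
  refine ⟨W, hW, code_inj ?_⟩
  rw [code_mul, code_mul, hW, hR]
  exact Nat.eq_of_beq_eq_true h1.2

theorem exists_class {A : G} (hA : A.e = true) (h : A * A * (A * A) ≠ 1) : ∃ t < 8, code A ∈ cl t := by
  have h1 := of_allEl_odd chk_some A hA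
  rw [Bool.or_eq_true, force_eq] at h1
  rcases h1 with h1 | h1
  · exact absurd (code_inj (by rw [code_mul, code_mul, code_one]; exact Nat.eq_of_beq_eq_true h1)) h
  · rw [List.any_eq_true] at h1
    obtain ⟨t, ht, e⟩ := h1
    exact ⟨t, List.mem_range.1 ht, mem_of_mem e⟩

theorem mem_cl {t : ℕ} (ht : t < 8) {R : G} (hR : code R = rep t) {A k : G}
    (h : A = k⁻¹ * R * k) : code A ∈ cl t := by
  have h1 := all_range' (of_allEl chk_class k⁻¹) ht
  rw [force_eq, ← hR, ← code_ci, inv_inv, ← h] at h1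
  exact mem_of_mem h1

theorem mem_cen {t : ℕ} (ht : t < 8) {R : G} (hR : code R = rep t) {A : G}
    (h : R * A = A * R) : code A ∈ cen t := by
  have h1 := all_range' (of_allEl chk_cen A) ht
  rw [← hR, ← code_mul, ← code_mul, h, Nat.beq_refl, Bool.not_true, Bool.false_or] at h1
  exact mem_of_mem h1

theorem exists_orb {t : ℕ} (ht : t < 8) {R : G} (hR : code R = rep t) {A : G}
    (h : code A ∈ cl t) : ∃ C : G, C * R = R * C ∧ code (C * A * C⁻¹) ∈ orb t := by
  have h1 := all_step (all_range' chk_orb ht) h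
  rw [List.any_eq_true] at h1
  obtain ⟨c, hc, e⟩ := h1
  have h2 := all_step (all_range' chk_cenval ht) hc
  rw [Bool.and_eq_true] at h2
  obtain ⟨C, hC⟩ := exists_code h2.1
  refine ⟨C, code_inj ?_, ?_⟩
  · rw [code_mul, code_mul, hC, hR]
    exact Nat.eq_of_beq_eq_true h2.2
  · rw [code_ci, hC]
    rw [force_eq] at e
    exact mem_of_mem e

/-- All elements conjugating `g` to `h`. -/
theorem transporter {t : ℕ} (ht : t < 8) {R : G} (hR : code R = rep t) {g h y : G}
    (hg : code g ∈ cl t) (hh : code h ∈ cl t) (hy : h = y⁻¹ * g * y) :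
    ∃ c ∈ cen t, code y = mulN (mulN (invN (wN t (code g))) c) (wN t (code h)) := by
  obtain ⟨Wg, hWg, eg⟩ := exists_w ht hR hg
  obtain ⟨Wh, hWh, eh⟩ := exists_w ht hR hh
  have eg' : g = Wg⁻¹ * R * Wg := by rw [mul_assoc, ← eg]; group
  have eh' : h = Wh⁻¹ * R * Wh := by rw [mul_assoc, ← eh]; group
  refine ⟨code (Wg * y * Wh⁻¹), ?_, ?_⟩
  · refine mem_cen ht hR ?_
    have h1 : Wh⁻¹ * R * Wh = y⁻¹ * (Wg⁻¹ * R * Wg) * y := by rw [← eg', ← eh', hy]
    calc R * (Wg * y * Wh⁻¹)
        = Wg * y * (y⁻¹ * (Wg⁻¹ * R * Wg) * y) * Wh⁻¹ := by group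
      _ = Wg * y * (Wh⁻¹ * R * Wh) * Wh⁻¹ := by rw [h1]
      _ = Wg * y * Wh⁻¹ * R := by group
  · rw [← hWg, ← hWh, ← code_inv, ← code_mul, ← code_mul]
    congr 1
    group

/-- All elements conjugating the representative to `h`. -/
theorem transporter_rep {t : ℕ} (ht : t < 8) {R : G} (hR : code R = rep t) {h y : G}
    (hh : code h ∈ cl t) (hy : h = y⁻¹ * R * y) :
    ∃ c ∈ cen t, code y = mulN c (wN t (code h)) := by
  obtain ⟨Wh, hWh, eh⟩ := exists_w ht hR hh
  have eh' : h = Wh⁻¹ * R * Wh := by rw [mul_assoc, ← eh]; group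
  refine ⟨code (y * Wh⁻¹), ?_, ?_⟩
  · refine mem_cen ht hR ?_
    have h1 : Wh⁻¹ * R * Wh = y⁻¹ * R * y := by rw [← eh', hy]
    calc R * (y * Wh⁻¹)
        = y * (y⁻¹ * R * y) * Wh⁻¹ := by group
      _ = y * (Wh⁻¹ * R * Wh) * Wh⁻¹ := by rw [h1]
      _ = y * Wh⁻¹ * R := by group
  · rw [← hWh, ← code_mul]
    congr 1
    group

def pow240N (x : ℕ) : ℕ :=
  force (mulN x x) fun u2 => force (mulN u2 u2) fun u4 => force (mulN u4 u4) fun u8 =>
    force (mulN u8 u8) fun u16 => force (mulN u16 u16) fun u32 => force (mulN u32 u32) fun u64 =>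
      force (mulN u64 u64) fun u128 => mulN (mulN (mulN u128 u64) u32) u16

theorem chk_pow240 : allEl (fun x => Nat.beq (pow240N x) 4097) = true := by
  decide +kernel

theorem G_pow (g : G) : g ^ 240 = 1 := by
  have h : g ^ 240 = g ^ 128 * g ^ 64 * g ^ 32 * g ^ 16 := by
    simp only [← pow_add]
  have h2 : g ^ 2 = g * g := pow_two g
  have h4 : g ^ 4 = g ^ 2 * g ^ 2 := by simp only [← pow_add]
  have h8 : g ^ 8 = g ^ 4 * g ^ 4 := by simp only [← pow_add]
  have h16 : g ^ 16 = g ^ 8 * g ^ 8 := by simp only [← pow_add]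
  have h32 : g ^ 32 = g ^ 16 * g ^ 16 := by simp only [← pow_add]
  have h64 : g ^ 64 = g ^ 32 * g ^ 32 := by simp only [← pow_add]
  have h128 : g ^ 128 = g ^ 64 * g ^ 64 := by simp only [← pow_add]
  apply code_inj
  have h1 : code (g ^ 240) = pow240N (code g) := by
    rw [h]
    unfold pow240N
    simp only [force_eq]
    rw [code_mul, code_mul, code_mul, h128, code_mul, h64, code_mul, h32, code_mul, h16, code_mul,
      h8, code_mul, h4, code_mul, h2, code_mul]
  rw [h1, code_one]
  exact Nat.eq_of_beq_eq_true (of_allEl chk_pow240 g)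

end Vale.Agent.P258.H550D9
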