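import Vale.Agent.P258.R2.H550D9.Steps
import Vale.Agent.P258.R2.H550D9.Lemmas
import Vale.Agent.P258.Bdl.B1
import Vale.Agent.P258.R2.H394.Graded

set_option linter.all false

namespace Vale.Agent.P258.H550D9

open Vale.Agent.P258.H550P9 (F9 fmN faN ng en force force_eq mem look)

/-- Conjugation relations for a coloured pattern, read in the two possible directions. -/
structure PatRel (v : Fin 21 → G) : Prop where
  f0 : v 1 = (v 8)⁻¹ * v 0 * v 8
  f1 : v 1 = (v 17)⁻¹ * v 2 * v 17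
  f2 : v 3 = (v 14)⁻¹ * v 2 * v 14
  f3 : v 3 = (v 1)⁻¹ * v 4 * v 1
  f4 : v 5 = (v 15)⁻¹ * v 4 * v 15
  f5 : v 5 = (v 20)⁻¹ * v 6 * v 20
  f6 : v 6 = (v 15)⁻¹ * v 7 * v 15
  f7 : v 8 = (v 1)⁻¹ * v 7 * v 1
  f8 : v 8 = (v 14)⁻¹ * v 9 * v 14
  f9 : v 10 = (v 17)⁻¹ * v 9 * v 17
  f10 : v 11 = (v 19)⁻¹ * v 10 * v 19
  f11 : v 11 = (v 8)⁻¹ * v 12 * v 8
  f12 : v 12 = (v 18)⁻¹ * v 13 * v 18
  f13 : v 14 = (v 3)⁻¹ * v 13 * v 3
  f14 : v 14 = (v 10)⁻¹ * v 15 * v 10
  f15 : v 16 = (v 11)⁻¹ * v 15 * v 11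
  f16 : v 16 = (v 14)⁻¹ * v 17 * v 14
  f17 : v 17 = (v 3)⁻¹ * v 18 * v 3
  f18 : v 18 = (v 12)⁻¹ * v 0 * v 12
  f19 : v 19 = (v 6)⁻¹ * v 20 * v 6
  f20 : v 19 = (v 10)⁻¹ * v 20 * v 10

theorem patRel_of_isCol (v : Fin 21 → G) (h : pattern.IsCol v) : PatRel v := by
  have g : ∀ a : Fin 21, v (nextV a) = v (aboveV a) ^ (-(sgnV a : ℤ)) * v a *
      v (aboveV a) ^ (sgnV a : ℤ) := by
    intro a
    rw [← nextV_eq, ← aboveV_eq, ← sgnV_eq]
    exact h a
  constructor
  · simpa [nextV, aboveV, sgnV] using g 0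
  · have := g 1; simp [nextV, aboveV, sgnV] at this; rw [this]; group
  · simpa [nextV, aboveV, sgnV] using g 2
  · have := g 3; simp [nextV, aboveV, sgnV] at this; rw [this]; group
  · simpa [nextV, aboveV, sgnV] using g 4
  · have := g 5; simp [nextV, aboveV, sgnV] at this; rw [this]; group
  · have := g 6; simp [nextV, aboveV, sgnV] at this; rw [this]; group
  · simpa [nextV, aboveV, sgnV] using g 7
  · have := g 8; simp [nextV, aboveV, sgnV] at this; rw [this]; group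
  · simpa [nextV, aboveV, sgnV] using g 9
  · simpa [nextV, aboveV, sgnV] using g 10
  · have := g 11; simp [nextV, aboveV, sgnV] at this; rw [this]; group
  · have := g 12; simp [nextV, aboveV, sgnV] at this; rw [this]; group
  · simpa [nextV, aboveV, sgnV] using g 13
  · have := g 14; simp [nextV, aboveV, sgnV] at this; rw [this]; group
  · simpa [nextV, aboveV, sgnV] using g 15
  · have := g 16; simp [nextV, aboveV, sgnV] at this; rw [this]; group
  · have := g 17; simp [nextV, aboveV, sgnV] at this; rw [this]; group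
  · have := g 18; simp [nextV, aboveV, sgnV] at this; rw [this]; group
  · have := g 19; simp [nextV, aboveV, sgnV] at this; rw [this]; group
  · simpa [nextV, aboveV, sgnV] using g 20

theorem isCol_of_patRel (v : Fin 21 → G) (h : PatRel v) : pattern.IsCol v := by
  have g : ∀ a : Fin 21, v (nextV a) = v (aboveV a) ^ (-(sgnV a : ℤ)) * v a *
      v (aboveV a) ^ (sgnV a : ℤ) := by
    intro a
    fin_cases a
    · simpa [nextV, aboveV, sgnV] using h.f0
    · have := h.f1; simp [nextV, aboveV, sgnV]; rw [this]; group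
    · simpa [nextV, aboveV, sgnV] using h.f2
    · have := h.f3; simp [nextV, aboveV, sgnV]; rw [this]; group
    · simpa [nextV, aboveV, sgnV] using h.f4
    · have := h.f5; simp [nextV, aboveV, sgnV]; rw [this]; group
    · have := h.f6; simp [nextV, aboveV, sgnV]; rw [this]; group
    · simpa [nextV, aboveV, sgnV] using h.f7
    · have := h.f8; simp [nextV, aboveV, sgnV]; rw [this]; group
    · simpa [nextV, aboveV, sgnV] using h.f9
    · simpa [nextV, aboveV, sgnV] using h.f10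
    · have := h.f11; simp [nextV, aboveV, sgnV]; rw [this]; group
    · have := h.f12; simp [nextV, aboveV, sgnV]; rw [this]; group
    · simpa [nextV, aboveV, sgnV] using h.f13
    · have := h.f14; simp [nextV, aboveV, sgnV]; rw [this]; group
    · simpa [nextV, aboveV, sgnV] using h.f15
    · have := h.f16; simp [nextV, aboveV, sgnV]; rw [this]; group
    · have := h.f17; simp [nextV, aboveV, sgnV]; rw [this]; group
    · have := h.f18; simp [nextV, aboveV, sgnV]; rw [this]; group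
    · have := h.f19; simp [nextV, aboveV, sgnV]; rw [this]; group
    · simpa [nextV, aboveV, sgnV] using h.f20
  intro a
  change Fin 21 at a
  have h1 := g a
  rw [← nextV_eq a, ← aboveV_eq a, ← sgnV_eq a] at h1
  exact h1

theorem arc_term {H : Type*} [Group H] (v : Fin 21 → H) (b : Fin 21) :
    v (pattern.above b) ^ ((pattern.sgn b : ℤˣ) : ℤ) = v (aboveV b) ^ (sgnV b : ℤ) := by
  rw [aboveV_eq, sgnV_eq]

/-- The value of the longitude of `K`. -/
def lamK {H : Type*} [Group H] (v : Fin 21 → H) : H :=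
  ((((((((((((((((((v 8 * (v 17)⁻¹) * v 14) * (v 1)⁻¹) * v 15) * (v 20)⁻¹) * (v 15)⁻¹) * v 1) * (v 14)⁻¹) * v 17) * v 19) * (v 8)⁻¹) * (v 18)⁻¹) * v 3) * (v 10)⁻¹) * v 11) * (v 14)⁻¹) * (v 3)⁻¹) * (v 12)⁻¹) * (v 0 * (v 0 * v 0))

theorem lonVal_K {H : Type*} [Group H] (v : Fin 21 → H) : pattern.lonVal v patternK = lamK v := by
  have h : (fun b : Fin 21 => v (pattern.above b) ^ ((pattern.sgn b : ℤˣ) : ℤ)) =
      fun b => v (aboveV b) ^ (sgnV b : ℤ) := funext (arc_term v)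
  have h1 : (List.map (fun b : Fin 21 => v (pattern.above b) ^ ((pattern.sgn b : ℤˣ) : ℤ))
      [0, 1, 2, 3, 4, 5, 6, 7, 8, 9, 10, 11, 12, 13, 14, 15, 16, 17, 18]).prod =
      v 8 ^ (1 : ℤ) * (v 17 ^ (-1 : ℤ) * (v 14 ^ (1 : ℤ) * (v 1 ^ (-1 : ℤ) * (v 15 ^ (1 : ℤ) * (v 20 ^ (-1 : ℤ) * (v 15 ^ (-1 : ℤ) * (v 1 ^ (1 : ℤ) * (v 14 ^ (-1 : ℤ) * (v 17 ^ (1 : ℤ) * (v 19 ^ (1 : ℤ) * (v 8 ^ (-1 : ℤ) * (v 18 ^ (-1 : ℤ) * (v 3 ^ (1 : ℤ) * (v 10 ^ (-1 : ℤ) * (v 11 ^ (1 : ℤ) * (v 14 ^ (-1 : ℤ) * (v 3 ^ (-1 : ℤ) * (v 12 ^ (-1 : ℤ) * (1))))))))))))))))))) := by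
    rw [h]
    rfl
  have h3 := lonVal_eq (D := pattern) v patternK _ _ _ walk_K writhe_K h1
  have h2 : v patternK = v 0 := rfl
  have h5 : v 0 ^ (-(-3 : ℤ)) = v 0 * (v 0 * v 0) := by
    rw [neg_neg, ← pow_three]
    exact zpow_natCast (v 0) 3
  rw [h2, h5] at h3
  rw [h3]
  simp only [lamK, zpow_one, zpow_neg_one, mul_one, mul_assoc]

theorem lonVal_E {H : Type*} [Group H] (v : Fin 21 → H) : pattern.lonVal v patternE = (v 6)⁻¹ * v 10 := by
  have h : (fun b : Fin 21 => v (pattern.above b) ^ ((pattern.sgn b : ℤˣ) : ℤ)) =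
      fun b => v (aboveV b) ^ (sgnV b : ℤ) := funext (arc_term v)
  have h1 : (List.map (fun b : Fin 21 => v (pattern.above b) ^ ((pattern.sgn b : ℤˣ) : ℤ))
      [19, 20]).prod = v 6 ^ (-1 : ℤ) * (v 10 ^ (1 : ℤ) * (1)) := by
    rw [h]
    rfl
  have h3 := lonVal_eq (D := pattern) v patternE _ _ _ walk_E writhe_E h1
  rw [h3]
  simp only [zpow_one, zpow_neg_one, mul_one, neg_zero, zpow_zero]


theorem fwd {a b k : G} (h : b = k⁻¹ * a * k) : code b = cjN (code a) (code k) := by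
  rw [h, code_cj]

theorem bwd {a b k : G} (h : b = k⁻¹ * a * k) : code a = ciN (code b) (code k) := by
  have : a = k * b * k⁻¹ := by rw [h]; group
  rw [this, code_ci]

theorem sound (v : Fin 21 → G) (h : PatRel v) (hE : (v 6)⁻¹ * v 10 = 1 → v 19 = 1)
    (hev : Nat.blt (code (v 19)) 65536 = true) (t : ℕ)
    (h0 : code (v 0) = rep t) (h12 : code (v 12) ∈ orb t) (h3 : code (v 3) ∈ cl t)
    (h8 : trF t (code (v 8)) = true)
    (h8c : ∃ c ∈ cen t, code (v 8) = mulN c (wN t (code (v 1))))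
    (h19c : ∃ c ∈ cen t,
      code (v 19) = mulN (mulN (invN (wN t (code (v 10)))) c) (wN t (code (v 11))))
    (hd : st0 t = true) : v 0 * v 0 ≠ lamK v := by
  obtain ⟨c8, hc8, ec8⟩ := h8c
  obtain ⟨c19, hc19, ec19⟩ := h19c
  unfold st0 at hd
  rw [force_eq, ← h0] at hd
  unfold st1 at hd
  replace hd := all_step hd h12
  unfold st2 at hd
  rw [force_eq, ← fwd h.f18] at hd
  unfold st3 at hd
  rw [force_eq, ← bwd h.f12] at hd
  unfold st4 at hd
  replace hd := all_step hd h3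
  unfold st5 at hd
  rw [force_eq, ← fwd h.f13] at hd
  unfold st6 at hd
  rw [force_eq, ← bwd h.f2] at hd
  unfold st7 at hd
  rw [force_eq, ← fwd h.f17] at hd
  unfold st8 at hd
  rw [force_eq, ← fwd h.f1] at hd
  unfold st9 at hd
  rw [force_eq, ← bwd h.f3] at hd
  unfold st10 at hd
  rw [force_eq, ← fwd h.f16] at hd
  unfold st11 at hd
  rw [force_eq] at hd
  replace hd := all_step hd hc8
  rw [force_eq, ← ec8] at hd
  unfold st12 at hd
  rw [h8, Bool.not_true, Bool.false_or] at hd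
  unfold st13 at hd
  rw [force_eq, ← bwd h.f7] at hd
  unfold st14 at hd
  rw [force_eq, ← bwd h.f8] at hd
  unfold st15 at hd
  rw [force_eq, ← fwd h.f9] at hd
  unfold st16 at hd
  rw [force_eq, ← fwd h.f11] at hd
  unfold st17 at hd
  rw [force_eq, ← bwd h.f14] at hd
  unfold st18 at hd
  replace hd := test_step hd (fwd h.f15)
  unfold st19 at hd
  rw [force_eq, ← fwd h.f4] at hd
  unfold st20 at hd
  rw [force_eq, ← fwd h.f6] at hd
  unfold st21 at hd
  rw [force_eq, force_eq] at hd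
  replace hd := all_step hd hc19
  rw [force_eq, ← ec19] at hd
  unfold st22 at hd
  rw [force_eq, ← bwd h.f19] at hd
  unfold st23 at hd
  replace hd := test_step hd (fwd h.f20)
  unfold st24 at hd
  replace hd := test_step hd (fwd h.f5)
  unfold st25 at hd
  intro hlam
  rw [hev, Bool.not_true, Bool.or_false, Bool.or_eq_true] at hd
  rcases hd with hd | hd
  · rw [Bool.and_eq_true] at hd
    have h1 : (v 6)⁻¹ * v 10 = 1 := code_inj (by
      rw [code_mul, code_inv, code_one]; exact Nat.eq_of_beq_eq_true hd.1)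
    have h2 := hd.2
    rw [hE h1, code_one] at h2
    exact absurd h2 (by decide)
  · have h3 : code (v 0 * v 0) = code (lamK v) := by rw [hlam]
    unfold lamK at h3
    simp only [code_mul, code_inv] at h3
    rw [Bool.not_eq_true'] at hd
    exact Nat.ne_of_beq_eq_false hd h3

end Vale.Agent.P258.H550D9
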